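import Vale.Agent.P097.H560.Back
import Vale.Agent.P097.H100.Ent

/-!
# P097 / block (T) : from bounds in straight coordinates to bounds in the coordinates `kpt`

`conv` : bounds `C R ^ θ E` of `g` on the compacts of the straight wide tube at the scales `R r n`
give bounds on the compacts of the blown up wide cone and growth with exponent `θ`.
-/

set_option linter.all false

open Complex Metric Filter Topology Set
open scoped ComplexConjugate

namespace Vale.Agent.P097.H91.ST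

open Vale.Agent.P097.H85 Vale.Agent.P097.H929 Vale.Agent.P097.TC Vale.Agent.P097.H560
open Vale.Agent.P097.H100 (Wc)

theorem kpt_scale (R c₀ σ y u r t : ℝ) (ht : t ≠ 0) (z : ℂ × ℂ) :
    kpt R c₀ σ y u (t * r) ((((t⁻¹ : ℝ) : ℂ)) • z) = kpt R c₀ σ y u r z := by
  have ht' : (t : ℂ) ≠ 0 := ofReal_ne_zero.2 ht
  rw [kpt_eq, kpt_eq]
  refine Prod.ext ?_ ?_
  · show (y : ℂ) + (R : ℂ) * I + ((t * r : ℝ) : ℂ) *
      ((((t⁻¹ : ℝ) : ℂ)) * z.1 + (I * c₀ + σ) * ((((t⁻¹ : ℝ) : ℂ)) * z.2)) = _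
    push_cast
    field_simp
  · show (u : ℂ) + ((t * r : ℝ) : ℂ) * ((((t⁻¹ : ℝ) : ℂ)) * z.2) = _
    push_cast
    field_simp

/-- **from straight bounds to the bounds in the coordinates `kpt`** -/
theorem conv {M : Set (ℂ × ℂ)} {b m : ℝ} {Ψ : ℂ → ℂ} {A : Set ℝ} {P : ℝ → ℂ} {c k : ℝ → ℝ}
    (hU : CmpU M b m Ψ A P c k) {u₀ : ℝ} (hu₀ : u₀ ∈ A) {σ s : ℝ} (hks : k u₀ < s)
    {l : Filter ℕ} {y u r S x v : ℕ → ℝ} (huA : ∀ᶠ n in l, u n ∈ A)
    (hu : Tendsto u l (𝓝 u₀)) (hr : Tendsto r l (𝓝[>] 0)) (hS : ∀ᶠ n in l, S n ≠ 0)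
    (hx : Tendsto (fun n => (y n - (P (u n)).re - x n) / r n) l (𝓝 0))
    (hv : Tendsto (fun n => (u n - v n) / r n) l (𝓝 0)) {g : ℂ × ℂ → ℂ} {cA : ℕ → ℂ}
    {E : ℕ → ℝ} (hE : ∀ᶠ n in l, 0 ≤ E n) {θ : ℝ} (hθ : 0 ≤ θ)
    (hst : ∀ δ : ℝ, 0 < δ → δ < s - k u₀ → ∀ W : Set (ℂ × ℂ), IsCompact W →
      W ⊆ H226.W.Wd δ → ∃ C : ℝ, ∀ R : ℝ, 1 ≤ R → ∀ᶠ n in l, ∀ z ∈ W,
        ‖g (Sx Ψ (x n) (v n) (S n) (((R * r n / S n : ℝ) : ℂ) • z)) - cA n‖ ≤
          C * R ^ θ * E n) :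
    (∀ X ⊆ Wc (s - σ), IsCompact X → ∃ C : ℝ, ∀ᶠ n in l, ∀ z ∈ X,
      ‖g (kpt (P (u n)).im (c u₀) σ (y n) (u n) (r n) z) - cA n‖ ≤ C * E n) ∧
    (∀ s'' < s - σ, ∀ M₁ : ℝ, ∃ A₁ : ℝ, ∀ z ∈ Wc (s - σ), 1 ≤ z.2.im →
      z.1.im ≤ s'' * z.2.im → ‖z‖ ≤ M₁ * z.2.im → ∀ᶠ n in l,
      ‖g (kpt (P (u n)).im (c u₀) σ (y n) (u n) (r n) z) - cA n‖ ≤
        A₁ * (1 + ‖z‖) ^ θ * E n) := by
  have hr0 : Tendsto r l (𝓝 0) := hr.mono_right nhdsWithin_le_nhds
  have hrp : ∀ᶠ n in l, 0 < r n := hr.eventually self_mem_nhdsWithin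
  -- the common core
  have core : ∀ X ⊆ Wc (s - σ), IsCompact X → ∃ C : ℝ, 0 ≤ C ∧ ∀ R : ℝ, 1 ≤ R →
      ∀ᶠ n in l, ∀ z ∈ X,
      ‖g (kpt (P (u n)).im (c u₀) σ (y n) (u n) (R * r n) z) - cA n‖ ≤
        C * R ^ θ * E n := by
    intro X hX hXc
    obtain ⟨δ, hδ, W, hWc, hWδ, d, hd, r₀, hr₀, hb⟩ := back hU hu₀ (σ := σ) (s := s) hXc hX
    have hδ' : max δ ((s - k u₀) / 2) < s - k u₀ := max_lt hδ (by linarith)
    have hδ0 : 0 < max δ ((s - k u₀) / 2) := lt_max_of_lt_right (by linarith)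
    obtain ⟨C, hC⟩ := hst _ hδ0 hδ' W hWc (by
      intro z hz
      obtain ⟨h1, h2⟩ := hWδ hz
      exact ⟨h1, h2.trans_le (mul_le_mul_of_nonneg_right (le_max_left _ _) h1.le)⟩)
    refine ⟨|C|, abs_nonneg _, fun R hR => ?_⟩
    have hR0 : 0 < R := by linarith
    have e1 : ∀ᶠ n in l, |u n - u₀| < d := by
      have := Metric.tendsto_nhds.1 hu d hd
      simpa [Real.dist_eq] using this
    have e2 : ∀ᶠ n in l, R * r n < r₀ := by
      have : Tendsto (fun n => R * r n) l (𝓝 (R * 0)) := hr0.const_mul R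
      rw [mul_zero] at this
      exact this.eventually_lt_const hr₀
    have e3 : ∀ᶠ n in l, |(y n - (P (u n)).re - x n) / r n| < d := by
      filter_upwards [Metric.tendsto_nhds.1 hx d hd] with n hn
      rwa [Real.dist_eq, sub_zero] at hn
    have e4 : ∀ᶠ n in l, |(u n - v n) / r n| < d := by
      filter_upwards [Metric.tendsto_nhds.1 hv d hd] with n hn
      rwa [Real.dist_eq, sub_zero] at hn
    filter_upwards [e1, e2, e3, e4, hrp, huA, hS, hE, hC R hR] with n a1 a2 a3 a4 a5 a6 a7 a8 a9 z hz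
    have hRr : 0 < R * r n := by positivity
    have hle : r n ≤ R * r n := le_mul_of_one_le_left a5.le hR
    rw [abs_div, abs_of_pos a5, div_lt_iff₀ a5] at a3 a4
    have hdl : d * r n ≤ d * (R * r n) := mul_le_mul_of_nonneg_left hle hd.le
    have h1 := hb (u n) a6 a1 (y n) (x n) (v n) (R * r n) hRr a2 (a3.le.trans hdl)
      (a4.le.trans hdl) z hz
    have h2 := a9 _ h1
    rw [Sx_Zt hRr.ne' a7] at h2
    refine h2.trans ?_
    have : 0 ≤ R ^ θ * E n := mul_nonneg (Real.rpow_nonneg hR0.le _) a8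
    calc C * R ^ θ * E n = C * (R ^ θ * E n) := by ring
      _ ≤ |C| * (R ^ θ * E n) := mul_le_mul_of_nonneg_right (le_abs_self _) this
      _ = _ := by ring
  constructor
  · intro X hX hXc
    obtain ⟨C, hC0, hC⟩ := core X hX hXc
    refine ⟨C, ?_⟩
    filter_upwards [hC 1 le_rfl] with n hn z hz
    have := hn z hz
    rwa [one_mul, Real.one_rpow, mul_one] at this
  · intro s'' hs'' M₁
    set X : Set (ℂ × ℂ) := {z | z.2.im = 1 ∧ z.1.im ≤ s'' ∧ ‖z‖ ≤ M₁} with hX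
    have hXc : IsCompact X := by
      refine Metric.isCompact_of_isClosed_isBounded ?_ ?_
      · have k1 : IsClosed {z : ℂ × ℂ | z.2.im = 1} := isClosed_eq (by fun_prop) (by fun_prop)
        have k2 : IsClosed {z : ℂ × ℂ | z.1.im ≤ s''} := isClosed_le (by fun_prop) (by fun_prop)
        have k3 : IsClosed {z : ℂ × ℂ | ‖z‖ ≤ M₁} := isClosed_le (by fun_prop) (by fun_prop)
        exact k1.inter (k2.inter k3)
      · refine (Metric.isBounded_closedBall (x := (0 : ℂ × ℂ)) (r := M₁)).subset ?_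
        intro z hz
        rw [mem_closedBall, dist_zero_right]
        exact hz.2.2
    have hXs : X ⊆ Wc (s - σ) := by
      rintro z ⟨h1, h2, h3⟩
      refine ⟨by rw [h1]; exact one_pos, ?_⟩
      rw [h1, mul_one]
      linarith
    obtain ⟨C, hC0, hC⟩ := core X hXs hXc
    refine ⟨C, ?_⟩
    intro z hz hz1 hz2 hz3
    have hR0 : 0 < z.2.im := by linarith
    have hzX : ((((z.2.im)⁻¹ : ℝ) : ℂ)) • z ∈ X := by
      refine ⟨?_, ?_, ?_⟩
      · show ((((z.2.im)⁻¹ : ℝ) : ℂ) * z.2).im = 1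
        rw [Complex.im_ofReal_mul]
        exact inv_mul_cancel₀ hR0.ne'
      · show ((((z.2.im)⁻¹ : ℝ) : ℂ) * z.1).im ≤ s''
        have : ((((z.2.im)⁻¹ : ℝ) : ℂ) * z.1).im = (z.2.im)⁻¹ * z.1.im := by
          rw [Complex.im_ofReal_mul]
        rw [this, inv_mul_le_iff₀ hR0]
        linarith
      · rw [norm_smul, Complex.norm_real, Real.norm_of_nonneg (inv_pos.2 hR0).le,
          inv_mul_le_iff₀ hR0]
        linarith
    filter_upwards [hC z.2.im hz1, hE] with n hn hEn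
    have h1 := hn _ hzX
    rw [kpt_scale _ _ _ _ _ _ _ hR0.ne'] at h1
    refine h1.trans ?_
    have h2 : z.2.im ^ θ ≤ (1 + ‖z‖) ^ θ := by
      refine Real.rpow_le_rpow hR0.le ?_ hθ
      have : z.2.im ≤ ‖z.2‖ := (le_abs_self _).trans (Complex.abs_im_le_norm _)
      have := norm_snd_le z
      linarith
    exact mul_le_mul_of_nonneg_right (mul_le_mul_of_nonneg_left h2 hC0) hEn

end Vale.Agent.P097.H91.ST
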