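import Vale.Agent.P097.H845.St.Chain

/-!
# P097 / block (T) in straight coordinates: higher scales

`gd_up` : (G) at the scale `R r₀` with size `e √R`.
`shift` : the base value moves by `O (e √R)` between the scales `r₀` and `R r₀`.
`grow` : the bounds at all scales from the bounds at one scale.
-/

set_option linter.all false

open Complex Metric Set Filter Topology

namespace Vale.Agent.P097.H91.ST

open Vale.Agent.P097.H845.St

section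

variable {E : Type*} [PseudoMetricSpace E] {L : ℂ × ℂ → E} {X om : ℝ} {Ev : ℝ → ℝ → ℝ → ℝ}

/-- (G) at the scale `R r₀` -/
theorem gd_up {C e y₀ x₀ r₀ R : ℝ} (hC : 0 ≤ C) (he : 0 ≤ e) (hr : 0 < r₀) (hR : 1 ≤ R)
    (hG : Gd Ev C e y₀ x₀ r₀) : Gd Ev C (e * Real.sqrt R) y₀ x₀ (R * r₀) := by
  intro y x ρ hy hx hρ hρ4
  refine (hG y x ρ hy hx hρ hρ4).trans ?_
  have ha : 0 ≤ |y - y₀| := abs_nonneg _
  have hb : 0 ≤ |x - x₀| := abs_nonneg _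
  have hR0 : 0 < R := by linarith
  have hRr : r₀ ≤ R * r₀ := le_mul_of_one_le_left hr.le hR
  set D := |y - y₀| + |x - x₀| + ρ + r₀ with hD
  set D' := |y - y₀| + |x - x₀| + ρ + R * r₀ with hD'
  have hDD : D ≤ D' := by rw [hD, hD']; linarith
  have hD0 : 0 < D := by rw [hD]; linarith
  have e1 : Real.sqrt (D / r₀) ≤ Real.sqrt R * Real.sqrt (D' / (R * r₀)) := by
    rw [← Real.sqrt_mul hR0.le]
    refine Real.sqrt_le_sqrt ?_
    rw [mul_div_assoc', div_le_div_iff₀ hr (by positivity)]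
    have : D * (R * r₀) ≤ D' * (R * r₀) := mul_le_mul_of_nonneg_right hDD (by positivity)
    calc D * (R * r₀) ≤ D' * (R * r₀) := this
      _ = R * D' * r₀ := by ring
  have e2 : (D / ρ) ^ 2 ≤ (D' / ρ) ^ 2 := by
    refine pow_le_pow_left₀ (by positivity) ?_ 2
    exact div_le_div_of_nonneg_right hDD hρ.le
  have hce : 0 ≤ C * e := mul_nonneg hC he
  calc C * e * Real.sqrt (D / r₀) * (D / ρ) ^ 2 ≤
      C * e * (Real.sqrt R * Real.sqrt (D' / (R * r₀))) * (D' / ρ) ^ 2 :=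
        mul_le_mul (mul_le_mul_of_nonneg_left e1 hce) e2 (by positivity) (by positivity)
    _ = _ := by ring

/-- size on the vertical over the pick, without smallness -/
theorem ev_up {C e y₀ x₀ r₀ : ℝ} (hC : 0 ≤ C) (he : 0 ≤ e) (hy : |y₀| ≤ 1 / 2)
    (hx : |x₀| ≤ 1 / 2) (hr : 0 < r₀) (hG : Gd Ev C e y₀ x₀ r₀) {i : ℕ}
    (hi : 2 ^ i * r₀ ≤ 1 / 4) : Ev y₀ x₀ (2 ^ i * r₀) ≤ 6 * C * e * Real.sqrt 2 ^ i := by
  have h2 : (1 : ℝ) ≤ 2 ^ i := one_le_pow₀ one_le_two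
  have hp : 0 < (2 : ℝ) ^ i * r₀ := by positivity
  have h1 := hG y₀ x₀ (2 ^ i * r₀) hy hx hp hi
  refine h1.trans ?_
  simp only [sub_self, abs_zero, zero_add]
  have hD : 2 ^ i * r₀ + r₀ ≤ 2 * (2 ^ i * r₀) := by nlinarith
  have e1 : Real.sqrt ((2 ^ i * r₀ + r₀) / r₀) ≤ Real.sqrt 2 * Real.sqrt 2 ^ i := by
    rw [← sqrt_two_pow i, ← Real.sqrt_mul (by norm_num)]
    refine Real.sqrt_le_sqrt ?_
    rw [div_le_iff₀ hr]; linarith
  have e2 : ((2 ^ i * r₀ + r₀) / (2 ^ i * r₀)) ^ 2 ≤ 4 := by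
    have : (2 ^ i * r₀ + r₀) / (2 ^ i * r₀) ≤ 2 := by rw [div_le_iff₀ hp]; exact hD
    have h0 : 0 ≤ (2 ^ i * r₀ + r₀) / (2 ^ i * r₀) := by positivity
    nlinarith
  have hce : 0 ≤ C * e := mul_nonneg hC he
  calc C * e * Real.sqrt ((2 ^ i * r₀ + r₀) / r₀) * ((2 ^ i * r₀ + r₀) / (2 ^ i * r₀)) ^ 2
      ≤ C * e * (Real.sqrt 2 * Real.sqrt 2 ^ i) * 4 := by
        refine mul_le_mul (mul_le_mul_of_nonneg_left e1 hce) e2 (by positivity) (by positivity)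
    _ = C * e * Real.sqrt 2 ^ i * (4 * Real.sqrt 2) := by ring
    _ ≤ C * e * Real.sqrt 2 ^ i * 6 := by
        refine mul_le_mul_of_nonneg_left ?_ (by positivity)
        have := sq2_hi; linarith
    _ = _ := by ring

/-- one step between the heights `2 ^ i r₀ ≤ h ≤ 2 ^ (i+1) r₀` over the pick -/
theorem step_up (hX : 2 ≤ X) (hom : om ≤ 1 / 2) (hO : Osc L X om Ev) {C e y₀ x₀ r₀ Q : ℝ}
    (hC : 0 ≤ C) (he : 0 ≤ e) (hQ : 0 ≤ Q) (hy : |y₀| ≤ 1 / 2) (hx : |x₀| ≤ 1 / 2) (hr : 0 < r₀)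
    (hG : Gd Ev C e y₀ x₀ r₀) {i : ℕ} (hi : 2 ^ i * r₀ ≤ 1 / 4) {h : ℝ} (h1 : 2 ^ i * r₀ ≤ h)
    (h2 : h ≤ 2 * (2 ^ i * r₀)) (hQb : dist (L (pt y₀ x₀ (2 ^ i * r₀))) (L (pt y₀ x₀ h)) ≤ Q) :
    dist (L (pt y₀ x₀ (2 ^ i * r₀))) (L (pt y₀ x₀ h)) ≤
      (1 + Q) * (6 * C * e * Real.sqrt 2 ^ i) := by
  have hp : 0 < (2 : ℝ) ^ i * r₀ := by positivity
  have hE := ev_up hC he hy hx hr hG hi
  set T := 6 * C * e * Real.sqrt 2 ^ i with hT
  have hT0 : 0 ≤ T := by positivity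
  by_cases hs : T < 1
  · have h3 : dist (L (pt y₀ x₀ (2 ^ i * r₀))) (L (pt y₀ x₀ h)) ≤ T := by
      refine (hO y₀ x₀ (2 ^ i * r₀) hy hx hp hi (hE.trans_lt hs) _ (pt_self hX hom hp) _
        ?_).trans hE
      have hX1 : 2 * (2 ^ i * r₀) ≤ X * (2 ^ i * r₀) := mul_le_mul_of_nonneg_right hX hp.le
      have hom1 : om * (2 ^ i * r₀) ≤ 1 / 2 * (2 ^ i * r₀) :=
        mul_le_mul_of_nonneg_right hom hp.le
      refine pt_mem_Pc ?_ ?_ ?_ ?_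
      · rw [sub_self, abs_zero]; linarith
      · rw [sub_self, abs_zero]; linarith
      · linarith
      · linarith
    nlinarith
  · push Not at hs
    refine hQb.trans ?_
    nlinarith

/-- **the base value at a higher scale** -/
theorem shift (hX : 2 ≤ X) (hom : om ≤ 1 / 2) (hO : Osc L X om Ev) {C e y₀ x₀ r₀ Q : ℝ}
    (hC : 0 ≤ C) (he : 0 ≤ e) (hQ : 0 ≤ Q) (hy : |y₀| ≤ 1 / 2) (hx : |x₀| ≤ 1 / 2) (hr : 0 < r₀)
    (hG : Gd Ev C e y₀ x₀ r₀) {R : ℝ} (hR : 1 ≤ R) (hRr : R * r₀ ≤ 1 / 4)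
    (hQb : ∀ h h' : ℝ, r₀ ≤ h → h ≤ h' → h' ≤ 2 * h → h' ≤ R * r₀ →
      dist (L (pt y₀ x₀ h)) (L (pt y₀ x₀ h')) ≤ Q) :
    dist (L (pt y₀ x₀ r₀)) (L (pt y₀ x₀ (R * r₀))) ≤ (1 + Q) * (21 * C * e * Real.sqrt R) := by
  -- `2 ^ n ≤ R < 2 ^ (n+1)`
  obtain ⟨n, hn1, hn2⟩ : ∃ n : ℕ, (2 : ℝ) ^ n ≤ R ∧ R ≤ 2 * 2 ^ n := by
    obtain ⟨m, m1, m2, m3⟩ := exists_top (h := 1) (R := R) one_pos hR
    rcases Nat.eq_zero_or_pos m with h0 | h0
    · subst h0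
      refine ⟨0, by simpa using hR, ?_⟩
      have : R ≤ 2 ^ 0 * 1 := m1
      simp at this ⊢
      linarith
    · refine ⟨m - 1, ?_, ?_⟩
      · have := m3 (m - 1) (Nat.sub_lt h0 one_pos)
        linarith
      · have h2 : (2 : ℝ) ^ m = 2 * 2 ^ (m - 1) := by
          rw [← pow_succ', Nat.sub_add_cancel h0]
        rw [← h2]
        linarith
  have hpow : ∀ i ≤ n, (2 : ℝ) ^ i * r₀ ≤ R * r₀ := fun i hi =>
    mul_le_mul_of_nonneg_right ((pow_le_pow_right₀ one_le_two hi).trans hn1) hr.le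
  have hone : ∀ i : ℕ, r₀ ≤ (2 : ℝ) ^ i * r₀ := fun i =>
    le_mul_of_one_le_left hr.le (one_le_pow₀ one_le_two)
  have h1 := dist_le_range_sum_of_dist_le (f := fun i : ℕ => L (pt y₀ x₀ (2 ^ i * r₀))) n
    (d := fun i => (1 + Q) * (6 * C * e * Real.sqrt 2 ^ i)) (by
      intro i hi
      have e2 : (2 : ℝ) ^ (i + 1) * r₀ = 2 * (2 ^ i * r₀) := by rw [pow_succ']; ring
      have hp : 0 < (2 : ℝ) ^ i * r₀ := by positivity
      refine step_up hX hom hO hC he hQ hy hx hr hG ((hpow i hi.le).trans hRr) ?_ ?_ ?_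
      · rw [e2]; linarith
      · rw [e2]
      · refine hQb _ _ (hone i) ?_ ?_ (hpow (i + 1) hi)
        · rw [e2]; linarith
        · rw [e2])
  have h2 : ∑ i ∈ Finset.range n, (1 + Q) * (6 * C * e * Real.sqrt 2 ^ i) ≤
      (1 + Q) * (15 * C * e * Real.sqrt 2 ^ n) := by
    rw [← Finset.mul_sum, ← Finset.mul_sum]
    have := geo_up n
    have hce : 0 ≤ 6 * C * e := by positivity
    refine mul_le_mul_of_nonneg_left ?_ (by linarith)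
    calc 6 * C * e * ∑ i ∈ Finset.range n, Real.sqrt 2 ^ i ≤
        6 * C * e * (5 / 2 * Real.sqrt 2 ^ n) := mul_le_mul_of_nonneg_left this hce
      _ = _ := by ring
  have h3 : dist (L (pt y₀ x₀ (2 ^ 0 * r₀))) (L (pt y₀ x₀ (2 ^ n * r₀))) ≤
      ∑ i ∈ Finset.range n, (1 + Q) * (6 * C * e * Real.sqrt 2 ^ i) := h1
  rw [pow_zero, one_mul] at h3
  have h4 : dist (L (pt y₀ x₀ (2 ^ n * r₀))) (L (pt y₀ x₀ (R * r₀))) ≤
      (1 + Q) * (6 * C * e * Real.sqrt 2 ^ n) := by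
    have hup : R * r₀ ≤ 2 * (2 ^ n * r₀) := by
      calc R * r₀ ≤ 2 * 2 ^ n * r₀ := mul_le_mul_of_nonneg_right hn2 hr.le
        _ = _ := by ring
    refine step_up hX hom hO hC he hQ hy hx hr hG ((hpow n le_rfl).trans hRr) (hpow n le_rfl)
      hup ?_
    exact hQb _ _ (hone n) (hpow n le_rfl) hup le_rfl
  have h5 : Real.sqrt 2 ^ n ≤ Real.sqrt R := by
    rw [← sqrt_two_pow n]
    exact Real.sqrt_le_sqrt hn1
  have hce : 0 ≤ C * e := mul_nonneg hC he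
  calc dist (L (pt y₀ x₀ r₀)) (L (pt y₀ x₀ (R * r₀))) ≤
      dist (L (pt y₀ x₀ r₀)) (L (pt y₀ x₀ (2 ^ n * r₀))) +
        dist (L (pt y₀ x₀ (2 ^ n * r₀))) (L (pt y₀ x₀ (R * r₀))) := dist_triangle _ _ _
    _ ≤ (1 + Q) * (15 * C * e * Real.sqrt 2 ^ n) + (1 + Q) * (6 * C * e * Real.sqrt 2 ^ n) :=
        add_le_add (h3.trans h2) h4
    _ = (1 + Q) * (21 * (C * e) * Real.sqrt 2 ^ n) := by ring
    _ ≤ (1 + Q) * (21 * (C * e) * Real.sqrt R) := by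
        refine mul_le_mul_of_nonneg_left ?_ (by linarith)
        exact mul_le_mul_of_nonneg_left h5 (by positivity)
    _ = _ := by ring

end

end Vale.Agent.P097.H91.ST
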